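import Vale.Agent.P147.Main
import Vale.Agent.P147.Exist
import Vale.Agent.P147.Uniq

open MeasureTheory Filter

namespace Vale.Agent.Results.P147.ZeroOne

open Vale.Agent.P147

/-- `P` is the annealed law of the step sequence of the walk started at the origin in the iid
environment with row law `μ`. -/
def IsAnnealed {d : ℕ} (μ : Measure (stdSimplex ℝ (St d))) (P : Measure (ℕ → St d)) : Prop :=
  IsProbabilityMeasure P ∧ ∀ (n : ℕ) (t : ℕ → St d), P {s | ∀ i < n, s i = t i} =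
    ∫⁻ ω, ∏ i ∈ Finset.range n, ENNReal.ofReal (ω (pos t i) (t i))
      ∂(Measure.infinitePi fun _ : V d => μ)

theorem result (d : ℕ) (hd : 3 ≤ d) (μ : Measure (stdSimplex ℝ (St d))) [IsProbabilityMeasure μ]
    (hell : ∀ᵐ p ∂μ, ∀ u, 0 < p u) :
    (∃! P, IsAnnealed μ P) ∧ ∀ P, IsAnnealed μ P → ∀ l : Fin d → ℝ, l ≠ 0 →
      P {s | Tendsto (fun n => ∑ i, l i * (pos s n i : ℝ)) atTop atTop} = 0 ∨
        P {s | Tendsto (fun n => ∑ i, l i * (pos s n i : ℝ)) atTop atTop} = 1 := by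
  refine ⟨?_, fun P hP l hl => ?_⟩
  · obtain ⟨P, h1, h2⟩ := exists_annealed μ
    refine ⟨P, ⟨h1, h2⟩, fun Q hQ => ?_⟩
    haveI := hQ.1
    exact ext_cyl Q P fun n t => by rw [hQ.2, h2]
  · haveI := hP.1
    exact zero_one (by omega) μ hell P hP.2 l hl

end Vale.Agent.Results.P147.ZeroOne
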